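import Mathlib

/-!
# Row 192, A3: S0293 for all domains of characteristic zero from S0293 over `ℂ` (helper395)
-/

set_option autoImplicit false

noncomputable section

namespace Crest.Agent.R192.A3x395

open Cardinal MonoidAlgebra

/-- a countable domain of characteristic zero embeds into `ℂ` -/
theorem exists_hom (S : Type) [CommRing S] [IsDomain S] [CharZero S] (hS : #S ≤ ℵ₀) :
    ∃ φ : S →+* ℂ, Function.Injective φ := by
  let P := MvPolynomial ℝ S
  let Q := FractionRing P
  let L := AlgebraicClosure Q
  have hP : #P ≤ 𝔠 := by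
    have h := MvPolynomial.cardinalMk_le_max (σ := ℝ) (R := S)
    refine h.trans ?_
    rw [Cardinal.mk_real]
    exact max_le (max_le (hS.trans aleph0_le_continuum) le_rfl) aleph0_le_continuum
  have hQ : #Q ≤ 𝔠 := (IsLocalization.cardinalMk_le (L := Q) (nonZeroDivisors P)).trans hP
  have hL1 : #L ≤ 𝔠 :=
    (Algebra.IsAlgebraic.cardinalMk_le_max Q L).trans (max_le hQ aleph0_le_continuum)
  have hinjS : Function.Injective (algebraMap S P) := MvPolynomial.C_injective ℝ S
  have hinjPQ : Function.Injective (algebraMap P Q) := IsFractionRing.injective P Q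
  have hinjQL : Function.Injective (algebraMap Q L) := (algebraMap Q L).injective
  have hL2 : 𝔠 ≤ #L := by
    rw [← Cardinal.mk_real]
    refine Cardinal.mk_le_of_injective
      (f := fun r : ℝ => algebraMap Q L (algebraMap P Q (MvPolynomial.X r : P))) ?_
    exact hinjQL.comp (hinjPQ.comp (MvPolynomial.X_injective (R := S)))
  let ψ : S →+* L := (algebraMap Q L).comp ((algebraMap P Q).comp (algebraMap S P))
  have hψ : Function.Injective ψ := hinjQL.comp (hinjPQ.comp hinjS)
  haveI : CharZero L := charZero_of_injective_ringHom hψ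
  have hc : #L = 𝔠 := le_antisymm hL1 hL2
  have he : Nonempty (L ≃ ℂ) := by
    rw [← Cardinal.eq, hc, Cardinal.mk_complex]
  obtain ⟨σ⟩ := IsAlgClosed.ringEquiv_of_equiv_of_charZero (K := L) (L := ℂ)
    (by rw [hc]; exact aleph0_lt_continuum) he
  exact ⟨(σ : L →+* ℂ).comp ψ, σ.injective.comp hψ⟩

/-- **A3** -/
theorem of_complex (G : Type) [Group G]
    (hC : ∀ e : MonoidAlgebra ℂ G, e * e = e → e = 0 ∨ e = 1)
    (R : Type) [CommRing R] [IsDomain R] [CharZero R]
    (e : MonoidAlgebra R G) (he : e * e = e) : e = 0 ∨ e = 1 := by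
  classical
  -- the subring generated by the coefficients
  let T : Set R := Set.range fun g => e.coeff g
  have hT : T.Countable := by
    have : T ⊆ insert 0 (e.coeff '' (e.coeff.support : Set G)) := by
      rintro _ ⟨g, rfl⟩
      by_cases hg : e.coeff g = 0
      · left; exact hg
      · right; exact ⟨g, Finsupp.mem_support_iff.2 hg, rfl⟩
    exact (((e.coeff.support.finite_toSet.image _).insert 0).countable).mono this
  let S : Subalgebra ℤ R := Algebra.adjoin ℤ T
  have hS : #S ≤ ℵ₀ := by
    refine (Algebra.cardinalMk_adjoin_le ℤ T).trans ?_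
    refine max_le (max_le ?_ ?_) le_rfl
    · exact mk_le_aleph0
    · exact (Cardinal.le_aleph0_iff_set_countable).2 hT
  haveI : CharZero S := charZero_of_injective_ringHom (f := (Int.castRingHom S)) (by
    intro a b hab
    have := congrArg (algebraMap S R) hab
    simpa using this)
  obtain ⟨φ, hφ⟩ := exists_hom S hS
  have hmem : ∀ g, e.coeff g ∈ S := fun g => Algebra.subset_adjoin ⟨g, rfl⟩
  let eS : MonoidAlgebra S G := MonoidAlgebra.ofCoeff
    (Finsupp.onFinset e.coeff.support (fun g => (⟨e.coeff g, hmem g⟩ : S)) (by
      intro g hg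
      rw [Finsupp.mem_support_iff]
      intro h
      exact hg (Subtype.ext h)))
  have hcoe : ∀ g, ((eS.coeff g : S) : R) = e.coeff g := fun g => rfl
  have hinj : Function.Injective (mapRingHom G (S.val : S →+* R)) := by
    intro a b hab
    ext g
    have h := congrArg (fun x => x.coeff g) hab
    simpa using h
  have hmap : mapRingHom G (S.val : S →+* R) eS = e := by
    ext g
    rw [coeff_mapRingHom]
    exact hcoe g
  have heS : eS * eS = eS := by
    apply hinj
    rw [map_mul, hmap, he]
  have hinjφ : Function.Injective (mapRingHom G φ) := by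
    intro a b hab
    ext g
    have h := congrArg (fun x => x.coeff g) hab
    simp only [coeff_mapRingHom] at h
    exact congrArg _ (hφ h)
  have h1 := hC (mapRingHom G φ eS) (by rw [← map_mul, heS])
  rcases h1 with h | h
  · left
    have : eS = 0 := hinjφ (by rw [h, map_zero])
    rw [← hmap, this, map_zero]
  · right
    have : eS = 1 := hinjφ (by rw [h, map_one])
    rw [← hmap, this, map_one]

end Crest.Agent.R192.A3x395
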